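import Vale.Agent.P224.Global
import Vale.Agent.P224.Sim

namespace Vale.Agent.Results.P224.ConstScal

open Vale.Agent.P224

theorem result (m : ℕ) (hm : 2 ≤ m) (M : Type) [TopologicalSpace M] [T2Space M] [CompactSpace M]
    [ConnectedSpace M] [ChartedSpace (Fin m → ℝ) M] (F : M → E (m + 2))
    (hF : IsSphImm (Fin m → ℝ) F) (hmin : IsMinimal F) (hgeo : ¬ SffSqIn F {0})
    (hS : (∃ c : ℝ, SffSqIn F {c}) ∨ SffSqIn F (Set.Ici (m : ℝ))) :
    ENNReal.ofReal (aMin m) ≤ vol F := by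
  have := hF.mfd
  refine vol_ge (by omega) hF.smooth hF.unit hF.inj hmin (hS.elim ?_ id)
  rintro ⟨c, hc⟩ x u hu b ν h
  have h1 : sffSq (loc F x) u b ν = c := hc x u hu b ν h
  have h2 := simons (good_loc hF.smooth hF.unit hF.inj x) hu
    fun u hu b ν h => ⟨hmin x u hu b ν h, hc x u hu b ν h⟩
  have h3 : 0 ≤ c := h1 ▸ Finset.sum_nonneg fun i _ => Finset.sum_nonneg fun j _ => sq_nonneg _
  have h4 : c ≠ 0 := fun h4 => hgeo (h4 ▸ hc)
  exact h1 ▸ sub_nonneg.1 (nonneg_of_mul_nonneg_right h2 (h3.lt_of_ne' h4))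

end Vale.Agent.Results.P224.ConstScal
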