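import Vale.Agent.P224.Global

namespace Vale.Agent.Results.P224.Pinched

open Vale.Agent.P224

theorem result (m : ℕ) (hm : 2 ≤ m) (M : Type) [TopologicalSpace M] [T2Space M] [CompactSpace M]
    [ConnectedSpace M] [ChartedSpace (Fin m → ℝ) M] (F : M → E (m + 2))
    (hF : IsSphImm (Fin m → ℝ) F) (hmin : IsMinimal F) (hS : SffSqIn F (Set.Ici (m : ℝ))) :
    ENNReal.ofReal (aMin m) ≤ vol F :=
  haveI := hF.mfd
  vol_ge (by omega) hF.smooth hF.unit hF.inj hmin hS

end Vale.Agent.Results.P224.Pinched
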